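import Vale.Agent.P245.H652.Norm

/-! The two ends of the proof: critical constant on a window of levels, near-maximisers, and the
reduction of Q1 to the core statement. -/

open MeasureTheory Real Set Filter Topology
open scoped ENNReal ContDiff

namespace Vale.Agent.P245.H652

open Vale.Agent.P245 Vale.Agent.P245.LS Vale.Agent.P245.E1

variable {n : ℕ}

/-- The core of the proof: for `κ ≥ K1` there is no log-concave, compactly supported, normalised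
measure for which `κ` is critical on the window `[2κ/C0, 3κ/C0]` of levels. -/
def Core (C0 K1 : ℝ) : Prop :=
  ∀ (n : ℕ) (ρ0 : (Fin n → ℝ) → ℝ) (R κ : ℝ), 1 ≤ n → LCd ρ0 → IsProbabilityMeasure (mu ρ0) →
    CSupp (mu ρ0) R → ExpM (mu ρ0) 1 → K1 ≤ κ →
    DBS (mu ρ0) (2 * (κ / C0)) (κ / C0) κ 0 →
    (∀ d, 0 < d → ∃ (σ : ℝ) (N : (Fin n → ℝ) → ℝ), σ ∈ Icc (2 * (κ / C0)) (3 * (κ / C0)) ∧
      Pos N ∧ EY (mu ρ0) σ N = 1 ∧ 0 < FI (mu ρ0) σ N ∧
      (κ - d) * FI (mu ρ0) σ N ≤ HE (mu ρ0) σ N) → False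

/-- transport up from level `s` to level `T` -/
theorem transport {ρ0 : (Fin n → ℝ) → ℝ} {R : ℝ} (hρ : LCd ρ0)
    (hp : IsProbabilityMeasure (mu ρ0)) (hR : CSupp (mu ρ0) R) {s T : ℝ} (hs : 0 < s)
    (hsT : s ≤ T) {N : (Fin n → ℝ) → ℝ} (hN : Pos N) (h1 : EY (mu ρ0) s N = 1) :
    Pos (UL (mu ρ0) s T N) ∧ EY (mu ρ0) T (UL (mu ρ0) s T N) = 1 ∧
      FI (mu ρ0) T (UL (mu ρ0) s T N) ≤ FI (mu ρ0) s N ∧
      HE (mu ρ0) s N - (T - s) / 2 * FI (mu ρ0) s N ≤ HE (mu ρ0) T (UL (mu ρ0) s T N) := by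
  have hR' := thR' n (mu ρ0) R hR
  have hPos : ∀ ρ, s ≤ ρ → Pos (UL (mu ρ0) s ρ N) := fun ρ h =>
    ((hR'.2.2 s ρ hs h).2 N hN).1
  have hE : EY (mu ρ0) T (UL (mu ρ0) s T N) = 1 := by
    rw [(thPr n (mu ρ0) R hR N s T hN hs hsT).1, h1]
  obtain ⟨cH, cF, dH, dF, -⟩ := thU' n (mu ρ0) R hR N s T hN hs hsT
  have hss : UL (mu ρ0) s s N = N := (thK n (mu ρ0) R hR).2.1 s N hs
  have hGA : ∀ ρ ∈ Ioo s T, 0 ≤ GA (mu ρ0) ρ (UL (mu ρ0) s ρ N)
      + 2 * BI (mu ρ0) ρ (UL (mu ρ0) s ρ N) (sN (UL (mu ρ0) s ρ N)) (sN (UL (mu ρ0) s ρ N)) := by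
    intro ρ hρ'
    have hP := hPos ρ hρ'.1.le
    have hsb := ((hR'.2.2 ρ ρ (hs.trans hρ'.1) le_rfl).2 _ hP).2.1
    have h2 := (thP n ρ0 R hρ hp hR ρ _ (sN (UL (mu ρ0) s ρ N)) (sN (UL (mu ρ0) s ρ N))
      (hs.trans hρ'.1) hP (fun i => (hsb i).1) (fun i => (hsb i).1)).1
    have h3 : 0 ≤ GA (mu ρ0) ρ (UL (mu ρ0) s ρ N) := by
      rw [(thCo n (mu ρ0) ρ _ hP).1.2]
      exact ((thCo n (mu ρ0) ρ _ hP).2.1 _ _ (fun i => (hsb i).1) (fun i => (hsb i).1)).2.1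
    linarith
  have hanti : AntitoneOn (fun ρ => FI (mu ρ0) ρ (UL (mu ρ0) s ρ N)) (Icc s T) := by
    apply antitoneOn_of_deriv_nonpos (convex_Icc s T) cF
    · rw [interior_Icc]
      exact fun ρ hρ' => (dF ρ hρ').differentiableAt.differentiableWithinAt
    · rw [interior_Icc]
      intro ρ hρ'
      rw [(dF ρ hρ').deriv]
      linarith [hGA ρ hρ']
  have hF : ∀ ρ ∈ Icc s T, FI (mu ρ0) ρ (UL (mu ρ0) s ρ N) ≤ FI (mu ρ0) s N := by
    intro ρ hρ'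
    have := hanti (left_mem_Icc.2 hsT) hρ' hρ'.1
    simpa only [hss] using this
  refine ⟨hPos T hsT, hE, hF T (right_mem_Icc.2 hsT), ?_⟩
  have hmono : MonotoneOn (fun ρ => HE (mu ρ0) ρ (UL (mu ρ0) s ρ N)
      + (ρ - s) / 2 * FI (mu ρ0) s N) (Icc s T) := by
    have hd : ∀ ρ ∈ Ioo s T, HasDerivAt (fun ρ => HE (mu ρ0) ρ (UL (mu ρ0) s ρ N)
        + (ρ - s) / 2 * FI (mu ρ0) s N)
        (-(1 / 2) * FI (mu ρ0) ρ (UL (mu ρ0) s ρ N) + 1 / 2 * FI (mu ρ0) s N) ρ := by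
      intro ρ hρ'
      exact (dH ρ hρ').add
        ((((hasDerivAt_id ρ).sub_const s).div_const 2).mul_const (FI (mu ρ0) s N))
    apply monotoneOn_of_deriv_nonneg (convex_Icc s T)
    · apply cH.add
      fun_prop
    · rw [interior_Icc]
      exact fun ρ hρ' => (hd ρ hρ').differentiableAt.differentiableWithinAt
    · rw [interior_Icc]
      intro ρ hρ'
      rw [(hd ρ hρ').deriv]
      linarith [hF ρ ⟨hρ'.1.le, hρ'.2.le⟩]
  have h5 := hmono (left_mem_Icc.2 hsT) (right_mem_Icc.2 hsT) hsT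
  simp only [hss, sub_self, zero_div, zero_mul, add_zero] at h5
  linarith

theorem FI_nonneg (μ : Measure (Fin n → ℝ)) (r : ℝ) {N : (Fin n → ℝ) → ℝ} (hN : Pos N) :
    0 ≤ FI μ r N := g_FI_nonneg μ r hN

theorem DBL_mono {μ : Measure (Fin n → ℝ)} {r κ κ' : ℝ} (h : DBL μ r κ 0) (hκ : κ ≤ κ') :
    DBL μ r κ' 0 := by
  intro N hN h1
  have := mul_le_mul_of_nonneg_right hκ (FI_nonneg μ r hN)
  linarith [h N hN h1]

theorem DL_mono {μ : Measure (Fin n → ℝ)} {C C' : ℝ} (h : DL μ C 0) (hC : C ≤ C') :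
    DL μ C' 0 := by
  intro g hg
  have h1 := h g hg
  have h2 : 0 ≤ ∑ i, ∫ x, pd g i x ^ 2 ∂μ :=
    Finset.sum_nonneg fun i _ => integral_nonneg fun x => sq_nonneg _
  have := mul_le_mul_of_nonneg_right hC h2
  linarith

/-- `κ` holds on its window -/
def SW (C0 : ℝ) (μ : Measure (Fin n → ℝ)) (κ : ℝ) : Prop := DBS μ (2 * (κ / C0)) (κ / C0) κ 0

theorem SW_large {C0 : ℝ} (hC0 : 4 ≤ C0) (hn : 1 ≤ n) {ρ0 : (Fin n → ℝ) → ℝ} {R : ℝ}
    (hρ : LCd ρ0) (hp : IsProbabilityMeasure (mu ρ0)) (hR : CSupp (mu ρ0) R)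
    (hE : ExpM (mu ρ0) 1) : ∃ κ3, 0 < κ3 ∧ ∀ κ, κ3 ≤ κ → SW C0 (mu ρ0) κ := by
  have hE3 : ExpM (mu ρ0) 3 := fun b => (hE b).trans
    (mul_le_mul_of_nonneg_right (by norm_num) (exp_pos _).le)
  obtain ⟨κ3, hκ3, h3⟩ := thH3 n ρ0 R hn hρ hp hR hE3
  refine ⟨2 * κ3, by positivity, fun κ hκ r hr => ?_⟩
  have hκ0 : 0 < κ := by linarith
  have hC : 0 < C0 := by linarith
  have h4 : κ / C0 ≤ κ / 4 := div_le_div_of_nonneg_left hκ0.le (by norm_num) hC0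
  have h5 : 0 < κ / C0 := by positivity
  have hr0 : 0 < r := by have := hr.1; linarith
  have hr1 : r ≤ 3 * (κ / 4) := by have := hr.2; linarith
  exact DBL_mono ((thLv n ρ0 R hρ hp hR r κ3 0 hr0 hκ3.le).1 h3) (by linarith)

/-- closure: if the inequality holds for all larger constants on their windows, it holds -/
theorem SW_closed {C0 : ℝ} (hC0 : 4 ≤ C0) {ρ0 : (Fin n → ℝ) → ℝ} {R : ℝ}
    (hρ : LCd ρ0) (hp : IsProbabilityMeasure (mu ρ0)) (hR : CSupp (mu ρ0) R)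
    {κ : ℝ} (hκ : 0 < κ) (h : ∀ κ', κ < κ' → SW C0 (mu ρ0) κ') : SW C0 (mu ρ0) κ := by
  have hC : 0 < C0 := by linarith
  intro r hr N hN h1
  have hκC : 0 < κ / C0 := by positivity
  have hr0 : 0 < r := by have := hr.1; linarith
  have hF := FI_nonneg (mu ρ0) r hN
  rw [add_zero]
  apply le_of_forall_pos_le_add
  intro ε hε
  set F := FI (mu ρ0) r N with hFdef
  set d := ε / (2 * F + 1) with hd
  have hd0 : 0 < d := by positivity
  have hdF : 2 * d * F ≤ ε := by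
    have : 2 * d * F ≤ d * (2 * F + 1) := by nlinarith
    refine this.trans (le_of_eq ?_)
    rw [hd]
    field_simp
  have hdC : 0 < d / C0 := by positivity
  have hdC4 : d / C0 ≤ d / 4 := div_le_div_of_nonneg_left hd0.le (by norm_num) hC0
  have hadd : (κ + d) / C0 = κ / C0 + d / C0 := add_div _ _ _
  have hT : r ≤ r + 3 * (d / C0) := by linarith
  obtain ⟨hP, hE, hFI, hHE⟩ := transport hρ hp hR hr0 hT hN h1
  have h2 := h (κ + d) (by linarith) (r + 3 * (d / C0)) (by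
    rw [hadd]
    exact ⟨by linarith [hr.1], by linarith [hr.2]⟩) _ hP hE
  rw [add_zero] at h2
  have h3 : (κ + d) * FI (mu ρ0) (r + 3 * (d / C0)) (UL (mu ρ0) r (r + 3 * (d / C0)) N)
      ≤ (κ + d) * F := mul_le_mul_of_nonneg_left hFI (by linarith)
  have h4 : (r + 3 * (d / C0) - r) / 2 * F ≤ (3 / 8 * d) * F :=
    mul_le_mul_of_nonneg_right (by linarith) hF
  have h5 : 0 ≤ d * F := by positivity
  nlinarith

/-- near-maximisers at the critical constant -/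
theorem near_max {C0 : ℝ} (hC0 : 4 ≤ C0) {ρ0 : (Fin n → ℝ) → ℝ} {R : ℝ}
    (hρ : LCd ρ0) (hp : IsProbabilityMeasure (mu ρ0)) (hR : CSupp (mu ρ0) R)
    {κ : ℝ} (hκ : 0 < κ) (hS : SW C0 (mu ρ0) κ)
    (hf : ∀ e, 0 < e → ∃ κ', 0 < κ' ∧ κ - e < κ' ∧ κ' ≤ κ ∧ ¬ SW C0 (mu ρ0) κ') :
    ∀ d, 0 < d → ∃ (σ : ℝ) (N : (Fin n → ℝ) → ℝ), σ ∈ Icc (2 * (κ / C0)) (3 * (κ / C0)) ∧
      Pos N ∧ EY (mu ρ0) σ N = 1 ∧ 0 < FI (mu ρ0) σ N ∧
      (κ - d) * FI (mu ρ0) σ N ≤ HE (mu ρ0) σ N := by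
  intro d hd
  have hC : 0 < C0 := by linarith
  set d' := min d κ / 2 with hd'
  have hd'0 : 0 < d' := by positivity
  have hd'1 : 2 * d' ≤ d := by rw [hd']; linarith [min_le_left d κ]
  have hd'2 : 2 * d' ≤ κ := by rw [hd']; linarith [min_le_right d κ]
  obtain ⟨κ', hκ'0, hκ'1, hκ'2, hnot⟩ := hf d' hd'0
  unfold SW DBS at hnot
  push Not at hnot
  obtain ⟨r, hr, hnot⟩ := hnot
  unfold DBL at hnot
  push Not at hnot
  obtain ⟨N, hN, h1, hlt⟩ := hnot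
  rw [add_zero] at hlt
  have hκC : 0 < κ' / C0 := by positivity
  have hr0 : 0 < r := by have := hr.1; linarith
  set g := (κ - κ') / C0 with hg
  have hg0 : 0 ≤ g := div_nonneg (by linarith) hC.le
  have hg1 : g ≤ (κ - κ') / 4 := div_le_div_of_nonneg_left (by linarith) (by norm_num) hC0
  have hgs : κ / C0 = κ' / C0 + g := by rw [hg, ← add_div]; congr 1; ring
  have hT : r ≤ r + 2 * g := by linarith
  obtain ⟨hP, hE, hFI, hHE⟩ := transport hρ hp hR hr0 hT hN h1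
  have hF0 := FI_nonneg (mu ρ0) r hN
  have hF1 := FI_nonneg (mu ρ0) (r + 2 * g) hP
  set F := FI (mu ρ0) r N with hFdef
  set F' := FI (mu ρ0) (r + 2 * g) (UL (mu ρ0) r (r + 2 * g) N) with hF'def
  have hmem : r + 2 * g ∈ Icc (2 * (κ / C0)) (3 * (κ / C0)) := by
    rw [hgs]
    exact ⟨by linarith [hr.1], by linarith [hr.2]⟩
  set a := κ' - g with ha
  have ha0 : 0 ≤ a := by linarith
  have had : κ - d ≤ a := by linarith
  have h5 : a * F < HE (mu ρ0) (r + 2 * g) (UL (mu ρ0) r (r + 2 * g) N) := by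
    have e : (r + 2 * g - r) / 2 * F = g * F := by ring
    rw [e] at hHE
    have e2 : a * F = κ' * F - g * F := by rw [ha]; ring
    rw [e2]
    linarith
  have h6 : a * F' ≤ a * F := mul_le_mul_of_nonneg_left hFI ha0
  have h7 : (κ - d) * F' ≤ a * F' := mul_le_mul_of_nonneg_right had hF1
  refine ⟨r + 2 * g, _, hmem, hP, hE, ?_, by linarith⟩
  rcases hF1.eq_or_lt with h0 | h0
  · exfalso
    have h8 := hS (r + 2 * g) ⟨hmem.1, by linarith [hmem.2]⟩ _ hP hE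
    rw [add_zero, ← hF'def, ← h0, mul_zero] at h8
    have h9 : 0 ≤ a * F := mul_nonneg ha0 hF0
    linarith
  · exact h0

/-- the inequality on the normalised class from the core -/
theorem StGN_of_Core {C0 K1 : ℝ} (hC0 : 4 ≤ C0) (hcore : Core C0 K1) (hn : 1 ≤ n) :
    StGN n (5 * max K1 1) := by
  intro ρ0 R hρ hp hR hE
  have hC : 0 < C0 := by linarith
  set K := max K1 1 with hK
  have hK1 : K1 ≤ K := le_max_left _ _
  have hK0 : 1 ≤ K := le_max_right _ _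
  have hKp : 0 < K := by linarith
  have key : SW C0 (mu ρ0) K := by
    by_contra hcon
    obtain ⟨κ3, hκ3, hlarge⟩ := SW_large hC0 hn hρ hp hR hE
    set A : Set ℝ := {κ | K ≤ κ ∧ ¬ SW C0 (mu ρ0) κ} with hA
    have hne : A.Nonempty := ⟨K, le_rfl, hcon⟩
    have hbdd : BddAbove A := ⟨κ3, fun κ hκ => by
      by_contra hlt
      exact hκ.2 (hlarge κ (not_le.1 hlt).le)⟩
    set κ := sSup A with hκ
    have hKκ : K ≤ κ := le_csSup hbdd ⟨le_rfl, hcon⟩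
    have hκp : 0 < κ := by linarith
    have habove : ∀ κ', κ < κ' → SW C0 (mu ρ0) κ' := by
      intro κ' hκ'
      by_contra hc
      have := le_csSup hbdd (show κ' ∈ A from ⟨by linarith, hc⟩)
      linarith
    have hS : SW C0 (mu ρ0) κ := SW_closed hC0 hρ hp hR hκp habove
    refine hcore n ρ0 R κ hn hρ hp hR hE (hK1.trans hKκ) hS
      (near_max hC0 hρ hp hR hκp hS ?_)
    intro e he
    obtain ⟨κ', hκ'A, hκ'⟩ := exists_lt_of_lt_csSup hne (show κ - e < sSup A by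
      rw [← hκ]; linarith)
    exact ⟨κ', by linarith [hκ'A.1], hκ', le_csSup hbdd hκ'A, hκ'A.2⟩
  have hKC : 0 < K / C0 := by positivity
  have h4 : K / C0 ≤ K / 4 := div_le_div_of_nonneg_left hKp.le (by norm_num) hC0
  have h1 := key (2 * (K / C0)) ⟨le_rfl, by linarith⟩
  have h2 := (thLv n ρ0 R hρ hp hR (2 * (K / C0)) K 0 (by linarith) hKp.le).2 h1
  have h3 := (thH2 n (mu ρ0) R _ 0 hR (by linarith) le_rfl).1 h2
  exact DL_mono h3 (by linarith)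

/-- **Q1 from the core.** -/
theorem literal_of_Core (h : ∃ C0 K1 : ℝ, 4 ≤ C0 ∧ Core C0 K1) :
    ∃ C : ℝ, 0 < C ∧ ∀ (n : ℕ), 1 ≤ n → ∀ (μ : Measure (EuclideanSpace ℝ (Fin n)))
      [IsProbabilityMeasure μ], HasLogConcaveDensity μ → ∀ a : ℝ, 0 < a →
      LinearlySubgaussian μ a → ∀ f : EuclideanSpace ℝ (Fin n) → ℝ, ContDiff ℝ ∞ f →
      HasCompactSupport f →
      Entropy μ (fun x => f x ^ 2) ≤ C * a ^ 2 * ∫ x, ‖gradient f x‖ ^ 2 ∂μ := by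
  obtain ⟨C0, K1, hC0, hcore⟩ := h
  have hpos : (0 : ℝ) < max K1 1 := lt_of_lt_of_le one_pos (le_max_right _ _)
  exact ⟨5 * max K1 1 * 14 ^ 2, by positivity,
    literal_of_StGC fun n hn => StGC_of_StGN (StGN_of_Core hC0 hcore hn)⟩

end Vale.Agent.P245.H652
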