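import Vale.Agent.P245.Bdl.B2

/-! Normalisation: from the literal statement of Q1 to centred compactly supported log-concave
measures with `E exp ⟨b, X⟩ ≤ exp (|b|² / 4)`. -/

open MeasureTheory Real Set Filter Topology
open scoped ENNReal ContDiff

namespace Vale.Agent.P245.H652

open Vale.Agent.P245 Vale.Agent.P245.LS Vale.Agent.P245.E1

variable {n : ℕ}

/-- the inequality with constant `C` on the class of `StG`, without logarithm -/
def StGC (n : ℕ) (C : ℝ) : Prop :=
  ∀ (ρ : (Fin n → ℝ) → ℝ) (R : ℝ), LCd ρ → IsProbabilityMeasure (mu ρ) →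
    CSupp (mu ρ) R → ExpM (mu ρ) 3 → DL (mu ρ) C 0

/-- the same on the normalised class -/
def StGN (n : ℕ) (C : ℝ) : Prop :=
  ∀ (ρ : (Fin n → ℝ) → ℝ) (R : ℝ), LCd ρ → IsProbabilityMeasure (mu ρ) →
    CSupp (mu ρ) R → ExpM (mu ρ) 1 → DL (mu ρ) C 0

/-- the literal statement from `StGC` -/
theorem literal_of_StGC {C : ℝ} (hG : ∀ n, 1 ≤ n → StGC n C) :
    ∀ (n : ℕ), 1 ≤ n → ∀ (μ : Measure (EuclideanSpace ℝ (Fin n)))
      [IsProbabilityMeasure μ], HasLogConcaveDensity μ → ∀ a : ℝ, 0 < a →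
      LinearlySubgaussian μ a → ∀ f : EuclideanSpace ℝ (Fin n) → ℝ, ContDiff ℝ ∞ f →
      HasCompactSupport f →
      Entropy μ (fun x => f x ^ 2) ≤ C * a ^ 2 * ∫ x, ‖gradient f x‖ ^ 2 ∂μ := by
  intro n hn μ _ hlc a ha hsub f hf hs
  have hlog : (0 : ℝ) < 1 + log n := by
    have : (0 : ℝ) ≤ log n := Real.log_nonneg (by exact_mod_cast hn)
    linarith
  have h1 : E1.StG n (C / (1 + log n)) := by
    intro ρ R _ hρ hp hR hE
    have := hG n hn ρ R hρ hp hR hE
    rwa [div_mul_cancel₀ _ hlog.ne']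
  have h2 := fin_logSobolev_of_stG h1 hn μ hlc ha hsub hf hs
  rwa [div_mul_cancel₀ _ hlog.ne'] at h2

/-! ### affine changes of variables -/

/-- the density of `(X - m) / s` -/
noncomputable def aff (s : ℝ) (m : Fin n → ℝ) (ρ : (Fin n → ℝ) → ℝ) (x : Fin n → ℝ) : ℝ :=
  s ^ n * ρ (s • x + m)

theorem lintegral_aff {s : ℝ} (hs : 0 < s) (m : Fin n → ℝ) (G : (Fin n → ℝ) → ℝ≥0∞) :
    ∫⁻ x, G (s • x + m) = ENNReal.ofReal ((s ^ n)⁻¹) * ∫⁻ y, G y := by
  have e1 : ∫⁻ x, G (s • x + m) = ∫⁻ x : Fin n → ℝ, (fun z => G (z + m)) (s • x) := rfl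
  have hmap : Measure.map (fun x : Fin n → ℝ => s • x) volume
      = ENNReal.ofReal |(s ^ Module.finrank ℝ (Fin n → ℝ))⁻¹| • volume :=
    Measure.map_addHaar_smul volume hs.ne'
  have hfin : Module.finrank ℝ (Fin n → ℝ) = n := by simp
  let e : (Fin n → ℝ) ≃ᵐ (Fin n → ℝ) := (Homeomorph.smulOfNeZero s hs.ne').toMeasurableEquiv
  have e2 : ∫⁻ x : Fin n → ℝ, (fun z => G (z + m)) (s • x)
      = ∫⁻ z, G (z + m) ∂(Measure.map (fun x : Fin n → ℝ => s • x) volume) := by
    have := lintegral_map_equiv (μ := (volume : Measure (Fin n → ℝ))) (fun z => G (z + m)) e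
    exact this.symm
  rw [e1, e2, hmap, lintegral_smul_measure, hfin, abs_of_pos (by positivity), smul_eq_mul,
    lintegral_add_right_eq_self G m]

theorem mu_aff {s : ℝ} (hs : 0 < s) (m : Fin n → ℝ) {ρ : (Fin n → ℝ) → ℝ} (_hρ : Measurable ρ) :
    mu (aff s m ρ) = (mu ρ).map (fun y => s⁻¹ • (y - m)) := by
  have hsn : 0 < s ^ n := by positivity
  ext E hE
  have hT : Measurable fun y : Fin n → ℝ => s⁻¹ • (y - m) := by fun_prop
  rw [Measure.map_apply hT hE, mu, mu, withDensity_apply _ hE,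
    withDensity_apply _ (hT hE), ← lintegral_indicator hE, ← lintegral_indicator (hT hE)]
  have e1 : ∀ x : Fin n → ℝ, E.indicator (fun x => ENNReal.ofReal (aff s m ρ x)) x
      = ENNReal.ofReal (s ^ n) *
        (((fun y : Fin n → ℝ => s⁻¹ • (y - m)) ⁻¹' E).indicator
          (fun y => ENNReal.ofReal (ρ y))) (s • x + m) := by
    intro x
    have hx : s⁻¹ • (s • x + m - m) = x := by
      rw [add_sub_cancel_right, smul_smul, inv_mul_cancel₀ hs.ne', one_smul]
    by_cases h : x ∈ E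
    · rw [Set.indicator_of_mem h, Set.indicator_of_mem (by rw [Set.mem_preimage, hx]; exact h),
        aff, ENNReal.ofReal_mul hsn.le]
    · rw [Set.indicator_of_notMem h,
        Set.indicator_of_notMem (by rw [Set.mem_preimage, hx]; exact h), mul_zero]
  simp_rw [e1]
  rw [lintegral_const_mul' _ _ ENNReal.ofReal_ne_top, lintegral_aff hs m, ← mul_assoc,
    ← ENNReal.ofReal_mul hsn.le, mul_inv_cancel₀ hsn.ne', ENNReal.ofReal_one, one_mul]

theorem isProb_aff {s : ℝ} (hs : 0 < s) (m : Fin n → ℝ) {ρ : (Fin n → ℝ) → ℝ}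
    (hρ : Measurable ρ) (hp : IsProbabilityMeasure (mu ρ)) :
    IsProbabilityMeasure (mu (aff s m ρ)) := by
  rw [mu_aff hs m hρ]
  exact Measure.isProbabilityMeasure_map (by fun_prop)

theorem integral_aff {s : ℝ} (hs : 0 < s) (m : Fin n → ℝ) {ρ : (Fin n → ℝ) → ℝ}
    (hρ : Measurable ρ) (F : (Fin n → ℝ) → ℝ) :
    ∫ x, F x ∂(mu (aff s m ρ)) = ∫ y, F (s⁻¹ • (y - m)) ∂(mu ρ) := by
  rw [mu_aff hs m hρ]
  let e : (Fin n → ℝ) ≃ᵐ (Fin n → ℝ) :=
    ((Homeomorph.subRight m).trans (Homeomorph.smulOfNeZero s⁻¹ (inv_ne_zero hs.ne'))).toMeasurableEquiv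
  exact integral_map_equiv e F

theorem LCd_aff {s : ℝ} (hs : 0 < s) (m : Fin n → ℝ) {ρ : (Fin n → ℝ) → ℝ} (hρ : LCd ρ) :
    LCd (aff s m ρ) := by
  have hsn : 0 < s ^ n := by positivity
  refine ⟨?_, fun x => mul_nonneg hsn.le (hρ.nonneg _), ?_⟩
  · unfold aff
    exact (hρ.meas.comp (by fun_prop)).const_mul _
  · intro x y t ht0 ht1
    have h := hρ.lc (s • x + m) (s • y + m) t ht0 ht1
    have e1 : (1 - t) • (s • x + m) + t • (s • y + m) = s • ((1 - t) • x + t • y) + m := by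
      funext i
      simp only [Pi.add_apply, Pi.smul_apply, smul_eq_mul]
      ring
    rw [e1] at h
    unfold aff
    rw [Real.mul_rpow hsn.le (hρ.nonneg _), Real.mul_rpow hsn.le (hρ.nonneg _)]
    have e2 : (s ^ n) ^ (1 - t) * (s ^ n) ^ t = s ^ n := by
      rw [← Real.rpow_add hsn, sub_add_cancel, Real.rpow_one]
    calc (s ^ n) ^ (1 - t) * ρ (s • x + m) ^ (1 - t) * ((s ^ n) ^ t * ρ (s • y + m) ^ t)
        = ((s ^ n) ^ (1 - t) * (s ^ n) ^ t) * (ρ (s • x + m) ^ (1 - t) * ρ (s • y + m) ^ t) := by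
          ring
      _ = s ^ n * (ρ (s • x + m) ^ (1 - t) * ρ (s • y + m) ^ t) := by rw [e2]
      _ ≤ s ^ n * ρ (s • ((1 - t) • x + t • y) + m) := mul_le_mul_of_nonneg_left h hsn.le

theorem CSupp_aff {s : ℝ} (hs : 0 < s) {m : Fin n → ℝ} {ρ : (Fin n → ℝ) → ℝ}
    (hρ : Measurable ρ) {R M : ℝ} (hR : CSupp (mu ρ) R) (hM : ∀ i, |m i| ≤ M) (hM0 : 0 ≤ M) :
    CSupp (mu (aff s m ρ)) (s⁻¹ * (R + M)) := by
  have hR0 := hR.nonneg
  refine ⟨by positivity, ?_⟩
  rw [mu_aff hs m hρ]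
  have hT : Measurable fun y : Fin n → ℝ => s⁻¹ • (y - m) := by fun_prop
  have hms : MeasurableSet {x : Fin n → ℝ | ∀ i, |x i| ≤ s⁻¹ * (R + M)} := by
    apply MeasurableSet.congr (s := ⋂ i, {x : Fin n → ℝ | |x i| ≤ s⁻¹ * (R + M)})
    · exact MeasurableSet.iInter fun i =>
        measurableSet_le (measurable_pi_apply i).norm measurable_const
    · ext x; simp
  rw [ae_map_iff hT.aemeasurable hms]
  filter_upwards [hR.supp] with y hy i
  simp only [Pi.smul_apply, Pi.sub_apply, smul_eq_mul]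
  rw [abs_mul, abs_of_pos (inv_pos.2 hs)]
  apply mul_le_mul_of_nonneg_left _ (inv_pos.2 hs).le
  calc |y i - m i| ≤ |y i| + |m i| := abs_sub _ _
    _ ≤ R + M := add_le_add (hy i) (hM i)

theorem pd_comp_aff {s : ℝ} {m : Fin n → ℝ} {g : (Fin n → ℝ) → ℝ} (hg : Differentiable ℝ g)
    (i : Fin n) (x : Fin n → ℝ) :
    pd (fun x => g (s • x + m)) i x = s * pd g i (s • x + m) := by
  unfold pd
  have h1 : HasFDerivAt (fun x : Fin n → ℝ => s • x + m) (s • ContinuousLinearMap.id ℝ (Fin n → ℝ)) x :=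
    ((hasFDerivAt_id x).const_smul s).add_const m
  have h2 := (hg (s • x + m)).hasFDerivAt.comp x h1
  have h3 : fderiv ℝ (fun x => g (s • x + m)) x
      = (fderiv ℝ g (s • x + m)).comp (s • ContinuousLinearMap.id ℝ (Fin n → ℝ)) := h2.fderiv
  rw [h3]
  simp

theorem smul_inv_sub_add {s : ℝ} (hs : 0 < s) (m y : Fin n → ℝ) :
    s • (s⁻¹ • (y - m)) + m = y := by
  rw [smul_smul, mul_inv_cancel₀ hs.ne', one_smul, sub_add_cancel]

/-- the inequality `DL` under affine changes of variables -/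
theorem DL_of_aff {s : ℝ} (hs : 0 < s) {m : Fin n → ℝ} {ρ : (Fin n → ℝ) → ℝ}
    (hρ : Measurable ρ) {C : ℝ} (h : DL (mu (aff s m ρ)) C 0) : DL (mu ρ) (C * s ^ 2) 0 := by
  intro g hg
  obtain ⟨hg2, R, c, hc⟩ := hg
  have hCB : CB fun x => g (s • x + m) := by
    refine ⟨hg2.comp (by fun_prop), s⁻¹ * (R + ‖m‖), c, fun x hx => hc _ ?_⟩
    have h1 : R + ‖m‖ < s * ‖x‖ := by
      have := mul_lt_mul_of_pos_left hx hs
      rwa [← mul_assoc, mul_inv_cancel₀ hs.ne', one_mul] at this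
    have h2 : ‖s • x‖ ≤ ‖s • x + m‖ + ‖m‖ := by
      have := norm_sub_le (s • x + m) m
      rwa [add_sub_cancel_right] at this
    rw [norm_smul, Real.norm_of_nonneg hs.le] at h2
    linarith
  have key := h _ hCB
  have hd : Differentiable ℝ g := hg2.differentiable (by norm_num)
  have e1 : ent (mu (aff s m ρ)) (fun x => g (s • x + m) ^ 2) = ent (mu ρ) (fun x => g x ^ 2) := by
    unfold ent
    rw [integral_aff hs m hρ, integral_aff hs m hρ]
    simp only [smul_inv_sub_add hs]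
  have e2 : ∀ i, ∫ x, pd (fun x => g (s • x + m)) i x ^ 2 ∂(mu (aff s m ρ))
      = s ^ 2 * ∫ x, pd g i x ^ 2 ∂(mu ρ) := by
    intro i
    simp only [pd_comp_aff hd]
    rw [integral_aff hs m hρ]
    simp only [smul_inv_sub_add hs, mul_pow]
    rw [integral_const_mul]
  rw [e1] at key
  simp only [e2, zero_mul, add_zero] at key ⊢
  rw [← Finset.mul_sum] at key
  rw [mul_assoc]
  exact key

/-! ### the centred exponential moment bound -/

theorem exp_le_add_exp_sq (y : ℝ) : exp y ≤ y + exp (y ^ 2) := by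
  rcases le_or_gt (|y|) 1 with h | h
  · have h1 := Real.abs_exp_sub_one_sub_id_le h
    have h2 := (abs_le.1 h1).2
    have h3 := Real.add_one_le_exp (y ^ 2)
    linarith
  · rcases lt_or_ge y 0 with h0 | h0
    · rw [abs_of_neg h0] at h
      have h1 : exp y ≤ 1 := Real.exp_le_one_iff.2 h0.le
      have h2 := Real.add_one_le_exp (y ^ 2)
      nlinarith
    · rw [abs_of_nonneg h0] at h
      have h1 : exp y ≤ exp (y ^ 2) := Real.exp_le_exp.2 (by nlinarith)
      linarith


section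

variable {μ : Measure (Fin n → ℝ)} [IsProbabilityMeasure μ] {R : ℝ}

/-- the mean -/
noncomputable def mn (μ : Measure (Fin n → ℝ)) (i : Fin n) : ℝ := ∫ x, x i ∂μ

theorem int_cont (h : CSupp μ R) {g : (Fin n → ℝ) → ℝ} (hg : Continuous g) : Integrable g μ :=
  (Adm.of_continuous h hg).integrable

theorem integral_lin (h : CSupp μ R) (b : Fin n → ℝ) :
    ∫ x, ∑ i, b i * x i ∂μ = ∑ i, b i * mn μ i := by
  rw [integral_finsetSum _ fun i _ => int_cont h (by fun_prop)]
  simp only [integral_const_mul]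
  rfl

theorem mn_exp_le (h : CSupp μ R) {A : ℝ} (hE : ExpM μ A) (b : Fin n → ℝ) :
    exp (∑ i, b i * mn μ i) ≤ A * exp ((∑ i, b i ^ 2) / 4) := by
  have h1 : ∀ x : Fin n → ℝ, exp (∑ i, b i * mn μ i) * (1 + (∑ i, b i * x i - ∑ i, b i * mn μ i))
      ≤ exp (∑ i, b i * x i) := by
    intro x
    have := Real.add_one_le_exp (∑ i, b i * x i - ∑ i, b i * mn μ i)
    calc exp (∑ i, b i * mn μ i) * (1 + (∑ i, b i * x i - ∑ i, b i * mn μ i))
        ≤ exp (∑ i, b i * mn μ i) * exp (∑ i, b i * x i - ∑ i, b i * mn μ i) :=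
          mul_le_mul_of_nonneg_left (by linarith) (exp_pos _).le
      _ = exp (∑ i, b i * x i) := by rw [← exp_add]; congr 1; ring
  have h2 := integral_mono (μ := μ)
    (f := fun x : Fin n → ℝ => exp (∑ i, b i * mn μ i)
      * (1 + (∑ i, b i * x i - ∑ i, b i * mn μ i)))
    (g := fun x => exp (∑ i, b i * x i)) (int_cont h (by fun_prop)) (int_cont h (by fun_prop)) h1
  rw [integral_const_mul, integral_add (integrable_const _) (int_cont h (by fun_prop)),
    integral_sub (int_cont h (by fun_prop)) (integrable_const _), integral_lin h] at h2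
  simp only [integral_const, probReal_univ, smul_eq_mul, one_mul, sub_self, add_zero,
    mul_one] at h2
  exact h2.trans (hE b)

theorem mn_sq_le (h : CSupp μ R) (hE : ExpM μ 3) : ∑ i, mn μ i ^ 2 ≤ log 3 := by
  have h1 := mn_exp_le h hE fun i => 2 * mn μ i
  have e1 : ∑ i, 2 * mn μ i * mn μ i = 2 * ∑ i, mn μ i ^ 2 := by
    rw [Finset.mul_sum]; exact Finset.sum_congr rfl fun i _ => by ring
  have e2 : ∑ i, (2 * mn μ i) ^ 2 = 4 * ∑ i, mn μ i ^ 2 := by
    rw [Finset.mul_sum]; exact Finset.sum_congr rfl fun i _ => by ring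
  rw [e1, e2] at h1
  have h2 := Real.log_le_log (exp_pos _) h1
  rw [Real.log_exp, Real.log_mul (by norm_num) (exp_pos _).ne', Real.log_exp] at h2
  linarith

/-- centred version, constant `6` and `3/4` -/
theorem exp_centred_le (h : CSupp μ R) (hE : ExpM μ 3) (b : Fin n → ℝ) :
    ∫ x, exp (∑ i, b i * (x i - mn μ i)) ∂μ ≤ 6 * exp (3 / 4 * ∑ i, b i ^ 2) := by
  have e1 : ∀ x : Fin n → ℝ, exp (∑ i, b i * (x i - mn μ i))
      = exp (-(∑ i, b i * mn μ i)) * exp (∑ i, b i * x i) := by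
    intro x
    rw [← exp_add]
    congr 1
    rw [← Finset.sum_neg_distrib, ← Finset.sum_add_distrib]
    exact Finset.sum_congr rfl fun i _ => by ring
  simp only [e1]
  rw [integral_const_mul]
  have h1 : -(∑ i, b i * mn μ i) ≤ (∑ i, b i ^ 2) / 2 + (∑ i, mn μ i ^ 2) / 2 := by
    rw [← Finset.sum_neg_distrib, Finset.sum_div, Finset.sum_div, ← Finset.sum_add_distrib]
    exact Finset.sum_le_sum fun i _ => by nlinarith [sq_nonneg (b i + mn μ i)]
  have h2 := mn_sq_le h hE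
  have h3 : exp (log 3 / 2) ≤ 2 := by
    have h4 : exp (log 3 / 2) ^ 2 = 3 := by
      rw [← Real.exp_nat_mul]
      push_cast
      rw [mul_div_cancel₀ _ (by norm_num : (2 : ℝ) ≠ 0), Real.exp_log (by norm_num)]
    nlinarith [exp_pos (log 3 / 2)]
  calc exp (-(∑ i, b i * mn μ i)) * ∫ x, exp (∑ i, b i * x i) ∂μ
      ≤ exp ((∑ i, b i ^ 2) / 2 + log 3 / 2) * (3 * exp ((∑ i, b i ^ 2) / 4)) := by
        apply mul_le_mul (exp_le_exp.2 (by linarith)) (hE b) _ (exp_pos _).le
        exact integral_nonneg fun x => (exp_pos _).le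
    _ = exp (log 3 / 2) * (3 * exp (3 / 4 * ∑ i, b i ^ 2)) := by
        rw [exp_add]
        have : exp (3 / 4 * ∑ i, b i ^ 2) = exp ((∑ i, b i ^ 2) / 2) * exp ((∑ i, b i ^ 2) / 4) := by
          rw [← exp_add]; congr 1; ring
        rw [this]; ring
    _ ≤ 2 * (3 * exp (3 / 4 * ∑ i, b i ^ 2)) :=
        mul_le_mul_of_nonneg_right h3 (by positivity)
    _ = _ := by ring

theorem exp_sq_le (h : CSupp μ R) (hE : ExpM μ 3) (b : Fin n → ℝ) (hb : 0 < ∑ i, b i ^ 2) :
    ∫ x, exp ((∑ i, b i * (x i - mn μ i)) ^ 2 / (6 * ∑ i, b i ^ 2)) ∂μ ≤ 17 / 2 := by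
  set S := ∑ i, b i ^ 2 with hS
  set c : ℝ := √(1 / (3 * S)) with hc
  have hc2 : c ^ 2 = 1 / (3 * S) := Real.sq_sqrt (by positivity)
  set T : (Fin n → ℝ) → (Fin 1 → ℝ) := fun x _ => c * ∑ i, b i * (x i - mn μ i) with hT
  have hTc : Continuous T := by rw [hT]; fun_prop
  have hTm : Measurable T := hTc.measurable
  set μ' : Measure (Fin 1 → ℝ) := μ.map T with hμ'
  have hp' : IsProbabilityMeasure μ' := Measure.isProbabilityMeasure_map hTm.aemeasurable
  have hR0 := h.nonneg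
  set R' : ℝ := |c| * ∑ i, |b i| * (R + |mn μ i|) with hR'
  have hC' : CSupp μ' R' := by
    refine ⟨by positivity, ?_⟩
    have hms : MeasurableSet {x : Fin 1 → ℝ | ∀ i, |x i| ≤ R'} := by
      apply MeasurableSet.congr (s := ⋂ i, {x : Fin 1 → ℝ | |x i| ≤ R'})
      · exact MeasurableSet.iInter fun i =>
          measurableSet_le (measurable_pi_apply i).norm measurable_const
      · ext x; simp
    rw [hμ', ae_map_iff hTm.aemeasurable hms]
    filter_upwards [h.supp] with y hy i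
    rw [hT]
    show |c * ∑ i, b i * (y i - mn μ i)| ≤ R'
    rw [abs_mul, hR']
    apply mul_le_mul_of_nonneg_left _ (abs_nonneg _)
    refine (Finset.abs_sum_le_sum_abs _ _).trans (Finset.sum_le_sum fun i _ => ?_)
    rw [abs_mul]
    apply mul_le_mul_of_nonneg_left _ (abs_nonneg _)
    calc |y i - mn μ i| ≤ |y i| + |mn μ i| := abs_sub _ _
      _ ≤ R + |mn μ i| := by have := hy i; linarith
  have hE' : ExpM μ' 6 := by
    intro z
    have hcont : Continuous fun x : Fin 1 → ℝ => exp (∑ i, z i * x i) := by fun_prop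
    rw [hμ', integral_map hTm.aemeasurable hcont.aestronglyMeasurable]
    have e1 : ∀ x : Fin n → ℝ, exp (∑ i, z i * T x i)
        = exp (∑ i, (z 0 * c * b i) * (x i - mn μ i)) := by
      intro x
      rw [hT]
      simp only [Fin.sum_univ_one]
      rw [Finset.mul_sum, Finset.mul_sum]
      congr 1
      exact Finset.sum_congr rfl fun i _ => by ring
    simp only [e1]
    refine (exp_centred_le h hE _).trans ?_
    simp only [Fin.sum_univ_one]
    apply mul_le_mul_of_nonneg_left _ (by norm_num)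
    apply exp_le_exp.2
    have e2 : ∑ i, (z 0 * c * b i) ^ 2 = z 0 ^ 2 * c ^ 2 * S := by
      rw [hS, Finset.mul_sum]
      exact Finset.sum_congr rfl fun i _ => by ring
    rw [e2, hc2]
    have : z 0 ^ 2 * (1 / (3 * S)) * S = z 0 ^ 2 / 3 := by
      have := hb.ne'
      field_simp
    rw [this]
    linarith
  have key := int_exp_half_sq hC' hE'
  have hcont : Continuous fun x : Fin 1 → ℝ => exp ((∑ i, x i ^ 2) / 2) := by fun_prop
  rw [hμ', integral_map hTm.aemeasurable hcont.aestronglyMeasurable] at key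
  have e3 : ∀ x : Fin n → ℝ, exp ((∑ i, T x i ^ 2) / 2)
      = exp ((∑ i, b i * (x i - mn μ i)) ^ 2 / (6 * S)) := by
    intro x
    rw [hT]
    simp only [Fin.sum_univ_one]
    congr 1
    rw [mul_pow, hc2]
    have := hb.ne'
    field_simp
    ring
  simp only [e3] at key
  refine key.trans ?_
  rw [pow_one]
  have : √(2 : ℝ) ≤ 17 / 12 := by
    rw [Real.sqrt_le_left (by norm_num)]
    norm_num
  linarith

/-- centred exponential moments with true sub-Gaussian behaviour -/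
theorem exp_centred_sub (h : CSupp μ R) (hE : ExpM μ 3) (b : Fin n → ℝ) :
    ∫ x, exp (∑ i, b i * (x i - mn μ i)) ∂μ ≤ exp (45 * ∑ i, b i ^ 2) := by
  have hS0 : 0 ≤ ∑ i, b i ^ 2 := Finset.sum_nonneg fun i _ => sq_nonneg _
  rcases hS0.eq_or_lt with h0 | hb
  · have hbz : ∀ i, b i = 0 := by
      intro i
      have := (Finset.sum_eq_zero_iff_of_nonneg (fun i _ => sq_nonneg (b i))).1 h0.symm i
        (Finset.mem_univ i)
      exact pow_eq_zero_iff (two_ne_zero) |>.1 this
    simp [hbz]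
  set S := ∑ i, b i ^ 2 with hS
  rcases le_or_gt (6 * S) 1 with h6 | h6
  · have hI1 : Integrable (fun x : Fin n → ℝ => ∑ i, b i * (x i - mn μ i)) μ :=
      int_cont h (by fun_prop)
    have hI2 : Integrable (fun x : Fin n → ℝ => exp ((∑ i, b i * (x i - mn μ i)) ^ 2)) μ :=
      int_cont h (by fun_prop)
    have hI3 : Integrable (fun x : Fin n → ℝ =>
        exp ((∑ i, b i * (x i - mn μ i)) ^ 2 / (6 * S))) μ := int_cont h (by fun_prop)
    have h1 : ∫ x, exp (∑ i, b i * (x i - mn μ i)) ∂μ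
        ≤ ∫ x, ((∑ i, b i * (x i - mn μ i)) + exp ((∑ i, b i * (x i - mn μ i)) ^ 2)) ∂μ :=
      integral_mono (int_cont h (by fun_prop)) (hI1.add hI2) fun x => exp_le_add_exp_sq _
    rw [integral_add hI1 hI2] at h1
    have h2 : ∫ x, ∑ i, b i * (x i - mn μ i) ∂μ = 0 := by
      have e : ∀ x : Fin n → ℝ, ∑ i, b i * (x i - mn μ i) = ∑ i, b i * x i - ∑ i, b i * mn μ i := by
        intro x
        rw [← Finset.sum_sub_distrib]
        exact Finset.sum_congr rfl fun i _ => by ring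
      simp only [e]
      rw [integral_sub (int_cont h (by fun_prop)) (integrable_const _), integral_lin h]
      simp
    have h3 : ∫ x, exp ((∑ i, b i * (x i - mn μ i)) ^ 2) ∂μ
        ≤ ∫ x, (1 + 6 * S * (exp ((∑ i, b i * (x i - mn μ i)) ^ 2 / (6 * S)) - 1)) ∂μ := by
      refine integral_mono hI2 ((integrable_const _).add ((hI3.sub (integrable_const _)).const_mul _))
        fun x => ?_
      have hcx := convexOn_exp.2 (Set.mem_univ (0 : ℝ))
        (Set.mem_univ ((∑ i, b i * (x i - mn μ i)) ^ 2 / (6 * S)))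
        (by linarith : 0 ≤ 1 - 6 * S) (by positivity : 0 ≤ 6 * S) (by ring)
      simp only [smul_eq_mul, mul_zero, zero_add, Real.exp_zero, mul_one] at hcx
      rw [mul_div_cancel₀ _ (by positivity : 6 * S ≠ 0)] at hcx
      show exp ((∑ i, b i * (x i - mn μ i)) ^ 2) ≤ _
      linarith
    have hI4 : Integrable (fun x : Fin n → ℝ =>
        6 * S * (exp ((∑ i, b i * (x i - mn μ i)) ^ 2 / (6 * S)) - 1)) μ :=
      int_cont h (by fun_prop)
    rw [integral_add (integrable_const _) hI4,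
      integral_const_mul, integral_sub hI3 (integrable_const _)] at h3
    simp only [integral_const, probReal_univ, smul_eq_mul, one_mul] at h3
    have h4 := exp_sq_le h hE b hb
    have h5 : 6 * S * (∫ x, exp ((∑ i, b i * (x i - mn μ i)) ^ 2 / (6 * S)) ∂μ - 1)
        ≤ 6 * S * (15 / 2) := mul_le_mul_of_nonneg_left (by linarith) (by positivity)
    have h6 := Real.add_one_le_exp (45 * S)
    linarith
  · refine (exp_centred_le h hE b).trans ?_
    have h7 : (6 : ℝ) ≤ exp 2 := by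
      have h8 : (5 / 2 : ℝ) ≤ exp 1 := by have := Real.exp_one_gt_d9; linarith
      have h9 : exp 2 = exp 1 * exp 1 := by rw [← exp_add]; norm_num
      rw [h9]
      nlinarith
    calc 6 * exp (3 / 4 * S) ≤ exp 2 * exp (3 / 4 * S) :=
          mul_le_mul_of_nonneg_right h7 (exp_pos _).le
      _ = exp (2 + 3 / 4 * S) := by rw [exp_add]
      _ ≤ exp (45 * S) := exp_le_exp.2 (by linarith)

end

/-! ### reduction to the normalised class -/

theorem StGC_of_StGN {C : ℝ} (h : StGN n C) : StGC n (C * 14 ^ 2) := by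
  intro ρ R hρ hp hR hE
  have hs : (0 : ℝ) < 14 := by norm_num
  apply DL_of_aff hs hρ.meas (m := mn (mu ρ))
  have hM : ∀ i, |mn (mu ρ) i| ≤ ∑ i, |mn (mu ρ) i| := fun i =>
    Finset.single_le_sum (f := fun i => |mn (mu ρ) i|) (fun i _ => abs_nonneg _) (Finset.mem_univ i)
  have hp' := isProb_aff hs (mn (mu ρ)) hρ.meas hp
  refine h _ _ (LCd_aff hs _ hρ) hp'
    (CSupp_aff hs hρ.meas hR hM (Finset.sum_nonneg fun i _ => abs_nonneg _)) ?_
  intro b
  rw [integral_aff hs _ hρ.meas]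
  have e1 : ∀ y : Fin n → ℝ, exp (∑ i, b i * ((14 : ℝ)⁻¹ • (y - mn (mu ρ))) i)
      = exp (∑ i, (b i / 14) * (y i - mn (mu ρ) i)) := by
    intro y
    congr 1
    refine Finset.sum_congr rfl fun i _ => ?_
    simp only [Pi.smul_apply, Pi.sub_apply, smul_eq_mul]
    ring
  simp only [e1]
  refine (exp_centred_sub hR hE _).trans ?_
  rw [one_mul]
  apply exp_le_exp.2
  have e2 : ∑ i, (b i / 14) ^ 2 = (∑ i, b i ^ 2) / 196 := by
    rw [Finset.sum_div]
    exact Finset.sum_congr rfl fun i _ => by ring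
  rw [e2]
  have : 0 ≤ ∑ i, b i ^ 2 := Finset.sum_nonneg fun i _ => sq_nonneg _
  linarith

end Vale.Agent.P245.H652
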